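import Vale.Agent.P231.K.Rig

/-!
The equality case under a lower bound of the trace of the curvature matrix.
-/

namespace Vale.Agent.P231

open Matrix Real Filter Topology Set

variable {m k : ℕ} {R C S C1 S1 Q : ℝ → Mat m} {P : Mat m} {c : ℝ}

theorem ric_a_zero (h : Sys R C S C1 S1) (hP : SPer C S P) (s : ℝ) :
    Tendsto (fun τ => Real.log (pr C S (s + τ) s).det - m * Real.log τ) (𝓝[>] 0) (𝓝 0) := by
  have L := h.loop hP
  have c1 : Continuous fun τ : ℝ => second_c_B C S C1 S1 τ (s + τ) :=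
    (second_c_cont L).comp (f := fun τ : ℝ => (τ, s + τ)) (by fun_prop)
  have e0 : (second_c_B C S C1 S1 0 (s + 0)).det = 1 := by
    rw [second_c_zero, h.gm_eq, det_one]
  have c2 : ContinuousAt (fun τ : ℝ => Real.log (second_c_B C S C1 S1 τ (s + τ)).det) 0 :=
    continuousAt_logdet c1.continuousAt (by rw [e0]; exact one_ne_zero)
  have c3 := c2.tendsto.mono_left (nhdsWithin_le_nhds (s := Ioi 0))
  rw [e0, Real.log_one] at c3
  have c4 : ∀ᶠ τ in 𝓝[>] (0 : ℝ), (second_c_B C S C1 S1 τ (s + τ)).det ≠ 0 :=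
    (c1.matrix_det.continuousAt.eventually_ne (by rw [e0]; exact one_ne_zero)).filter_mono
      nhdsWithin_le_nhds
  refine c3.congr' ?_
  filter_upwards [c4, self_mem_nhdsWithin] with τ h1 h2
  have h3 : (0 : ℝ) < τ := h2
  have e := second_c_eq L τ (s + τ)
  rw [add_sub_cancel_right] at e
  rw [e, det_smul, Fintype.card_fin, Real.log_mul (pow_pos h3 m).ne' h1, Real.log_pow]
  ring

theorem ric_a_tr (h : Sys R C S C1 S1) {t s : ℝ} (hd : (pr C S t s).det ≠ 0) :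
    ∃ d, HasDerivAt (fun r => (sig C S C1 S1 r s).trace) d t ∧
      d ≤ -(R t).trace - ∑ i, sig C S C1 S1 t s i i ^ 2 := by
  refine ⟨_, (HasDerivAt.fun_sum (u := Finset.univ) fun i _ =>
    sys_b_ric h hd (Pi.single i 1)).congr_of_eventuallyEq (Eventually.of_forall fun r => ?_), ?_⟩
  · simp [Matrix.trace]
  · rw [Matrix.trace, ← Finset.sum_neg_distrib, ← Finset.sum_sub_distrib]
    refine Finset.sum_le_sum fun i _ => ?_
    have h1 : sig C S C1 S1 t s i i ^ 2 ≤ (sig C S C1 S1 t s *ᵥ Pi.single i 1) ⬝ᵥ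
        (sig C S C1 S1 t s *ᵥ Pi.single i 1) := by
      have := Finset.single_le_sum (f := fun j => sig C S C1 S1 t s j i * sig C S C1 S1 t s j i)
        (fun j _ => mul_self_nonneg _) (Finset.mem_univ i)
      simpa [dotProduct, sq] using this
    simp only [single_dotProduct, mulVec_single_one, one_mul, col_apply, diag_apply] at h1 ⊢
    linarith

theorem ric_a_bishop (h : Sys R C S C1 S1) (hP : SPer C S P) (hT : Tv C S (π / 2))
    (hc : ∀ t, c ≤ (R t).trace) (s : ℝ) {τ : ℝ} (hτ : τ ∈ Ioo 0 (π / 2)) :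
    Real.log (pr C S (s + τ) s).det ≤ m * Real.log τ - c * τ ^ 2 / 6 := by
  have hd : ∀ x ∈ Ioo 0 (π / 2), (pr C S (s + x) s).det ≠ 0 := fun x hx =>
    hT _ _ (by linarith [hx.1]) (by linarith [hx.2])
  set H : ℝ → ℝ := fun x => (sig C S C1 S1 (s + x) s).trace
  set f : ℝ → ℝ := fun x => Real.log (pr C S (s + x) s).det - m * Real.log x + c * x ^ 2 / 6
  set p : ℝ → ℝ := fun x => x ^ 2 * H x - m * x + c * x ^ 3 / 3
  have df : ∀ x ∈ Ioo 0 (π / 2), HasDerivAt f (p x / x ^ 2) x := fun x hx => by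
    have h1 := ((sys_b_dA h s (s + x)).logdet (hd x hx)).comp_const_add s x
    refine ((h1.sub ((Real.hasDerivAt_log hx.1.ne').const_mul (m : ℝ))).add
      (((hasDerivAt_pow 2 x).const_mul c).div_const 6)).congr_deriv ?_
    have := hx.1.ne'
    simp only [p, H, sig, Matrix.trace_mul_comm (pr C S (s + x) s)⁻¹]
    field_simp
    norm_num
    ring
  have dp : ∀ x ∈ Ioo 0 (π / 2), ∃ d, HasDerivAt p d x ∧ d ≤ 0 := fun x hx => by
    obtain ⟨d, h1, h2⟩ := ric_a_tr h (hd x hx)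
    refine ⟨_, ((((hasDerivAt_pow 2 x).fun_mul (h1.comp_const_add s x))).sub
      ((hasDerivAt_id x).const_mul (m : ℝ))).add
      (((hasDerivAt_pow 3 x).const_mul c).div_const 3), ?_⟩
    have h3 : ∑ i, (2 * x * sig C S C1 S1 (s + x) s i i - x ^ 2 * sig C S C1 S1 (s + x) s i i ^ 2)
        ≤ ∑ _i : Fin m, (1 : ℝ) := Finset.sum_le_sum fun i _ => by
      nlinarith [sq_nonneg (x * sig C S C1 S1 (s + x) s i i - 1)]
    rw [Finset.sum_sub_distrib, ← Finset.mul_sum, ← Finset.mul_sum] at h3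
    simp only [Finset.sum_const, Finset.card_univ, Fintype.card_fin, nsmul_eq_mul, mul_one] at h3
    have h4 : x ^ 2 * d ≤ x ^ 2 * (-c - ∑ i, sig C S C1 S1 (s + x) s i i ^ 2) :=
      mul_le_mul_of_nonneg_left (by linarith [hc (s + x)]) (sq_nonneg x)
    simp only [Matrix.trace, diag_apply]
    norm_num
    nlinarith
  have anti : ∀ {F : ℝ → ℝ} {b : ℝ}, (∀ x ∈ Ioo 0 b, ∃ d, HasDerivAt F d x ∧ d ≤ 0) →
      AntitoneOn F (Ioo 0 b) := fun {F b} hF =>
    antitoneOn_of_deriv_nonpos (convex_Ioo _ _)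
      (fun x hx => (hF x hx).choose_spec.1.continuousAt.continuousWithinAt)
      (fun x hx => by
        rw [interior_Ioo] at hx
        exact (hF x hx).choose_spec.1.differentiableAt.differentiableWithinAt)
      (fun x hx => by
        rw [interior_Ioo] at hx
        rw [(hF x hx).choose_spec.1.deriv]
        exact (hF x hx).choose_spec.2)
  have f0 : Tendsto f (𝓝[>] 0) (𝓝 0) := by
    have h1 : Tendsto (fun x : ℝ => c * x ^ 2 / 6) (𝓝[>] 0) (𝓝 (c * 0 ^ 2 / 6)) :=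
      (Continuous.tendsto (by fun_prop) 0).mono_left nhdsWithin_le_nhds
    simpa using (ric_a_zero h hP s).add h1
  have ev : ∀ {b : ℝ}, 0 < b → ∀ᶠ x in 𝓝[>] (0 : ℝ), x ∈ Ioo 0 b := fun hb => Ioo_mem_nhdsGT hb
  have p0 : ∀ x ∈ Ioo 0 (π / 2), p x ≤ 0 := fun x hx => by
    by_contra hn
    push Not at hn
    have h1 : AntitoneOn (fun y => -(f y + p x * y⁻¹)) (Ioo 0 x) := anti fun y hy => by
      have hy' : y ∈ Ioo 0 (π / 2) := ⟨hy.1, hy.2.trans hx.2⟩
      refine ⟨_, ((df y hy').add ((hasDerivAt_inv hy.1.ne').const_mul (p x))).neg, ?_⟩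
      have h2 : p x ≤ p y := anti dp hy' hx hy.2.le
      have h3 : 0 < (y ^ 2)⁻¹ := inv_pos.2 (pow_pos hy.1 2)
      rw [div_eq_mul_inv]
      nlinarith
    have h2 : Tendsto (fun y => f y + p x * y⁻¹) (𝓝[>] 0) atTop :=
      f0.add_atTop (tendsto_inv_nhdsGT_zero.const_mul_atTop hn)
    have hx2 : x / 2 ∈ Ioo 0 x := ⟨by linarith [hx.1], by linarith [hx.1]⟩
    obtain ⟨y, h3, h4⟩ := ((h2.eventually_gt_atTop (f (x / 2) + p x * (x / 2)⁻¹)).and
      (ev hx2.1)).exists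
    have := h1 ⟨h4.1, h4.2.trans hx2.2⟩ hx2 h4.2.le
    simp only at this
    linarith
  have h5 := anti (F := f) fun x hx => ⟨_, df x hx, div_nonpos_of_nonpos_of_nonneg (p0 x hx)
    (sq_nonneg x)⟩
  have h6 : f τ ≤ 0 := ge_of_tendsto f0 ((ev hτ.1).mono fun x hx =>
    h5 ⟨hx.1, hx.2.trans hτ.2⟩ hτ hx.2.le)
  simp only [f] at h6
  linarith

theorem ric_a_sin {x : ℝ} (hx : x ∈ Ioo 0 1) :
    Real.log x - Real.log (sin x) - x ^ 2 / 6 ≤ x ^ 3 := by
  have h1 := Real.sin_ge_sub_cube hx.1.le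
  have h0 := hx.1
  have h3 : x ^ 2 < 1 := by nlinarith [hx.2]
  have hs : 0 < sin x := by nlinarith
  have h4 := Real.log_le_sub_one_of_pos (div_pos hx.1 hs)
  rw [Real.log_div hx.1.ne' hs.ne'] at h4
  have h5 : x / sin x ≤ 1 + x ^ 2 / 6 + x ^ 3 := by
    rw [div_le_iff₀ hs]
    have h6 := mul_le_mul_of_nonneg_left h1 (by positivity : 0 ≤ 1 + x ^ 2 / 6 + x ^ 3)
    have h7 : 0 ≤ x ^ 4 * (1 - x / 36 - x ^ 2 / 6) :=
      mul_nonneg (by positivity) (by linarith [hx.2])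
    nlinarith
  linarith

theorem ric_a_cos {x : ℝ} (hx : x ∈ Ioo 0 1) : -Real.log (cos x) - x ^ 2 / 2 ≤ x ^ 3 := by
  have h1 := Real.one_sub_sq_div_two_le_cos (x := x)
  have h0 := hx.1
  have h3 : x ^ 2 < 1 := by nlinarith [hx.2]
  have hs : 0 < cos x := by nlinarith
  have h4 := Real.log_le_sub_one_of_pos (inv_pos.2 hs)
  rw [Real.log_inv] at h4
  have h5 : (cos x)⁻¹ ≤ 1 + x ^ 2 / 2 + x ^ 3 := by
    rw [inv_le_iff_one_le_mul₀ hs]
    have h6 := mul_le_mul_of_nonneg_left h1 (by positivity : 0 ≤ 1 + x ^ 2 / 2 + x ^ 3)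
    have h7 : 0 ≤ x ^ 3 * (1 - x / 4 - x ^ 2 / 2) :=
      mul_nonneg (by positivity) (by linarith [hx.2])
    nlinarith
  linarith

theorem ric_a_up (h : Sys R C S C1 S1) (hP : SPer C S P) (hT : Tv C S (π / 2))
    (hc : ∀ t, m + 3 * k ≤ (R t).trace) {τ : ℝ} (hτ : τ ∈ Ioo 0 1) :
    ww C S k τ ≤ π * (m + k) * τ ^ 3 := by
  have hτ' : τ ∈ Ioo 0 (π / 2) := ⟨hτ.1, by linarith [hτ.2, pi_gt_three]⟩
  have h1 : avL C S τ ≤ π * (m * Real.log τ - (m + 3 * k) * τ ^ 2 / 6) := by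
    have := intervalIntegral.integral_mono_on (μ := MeasureTheory.volume) pi_pos.le
      (((h.loop hP).continuous_log hT hτ').intervalIntegrable 0 π)
      (intervalIntegrable_const (c := m * Real.log τ - (m + 3 * k) * τ ^ 2 / 6)) fun t _ => by
        have := ric_a_bishop h hP hT hc (t - τ) hτ'
        rwa [sub_add_cancel] at this
    rwa [intervalIntegral.integral_const, sub_zero, smul_eq_mul] at this
  have h2 := mul_le_mul_of_nonneg_left (ric_a_sin hτ) (Nat.cast_nonneg (α := ℝ) m)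
  have h3 := mul_le_mul_of_nonneg_left (ric_a_cos hτ) (Nat.cast_nonneg (α := ℝ) k)
  have h4 := mul_le_mul_of_nonneg_left (add_le_add h2 h3) pi_pos.le
  rw [ww]
  linarith

theorem ric_log (h : Sys R C S C1 S1) (hP : SPer C S P) (hT : Tv C S (π / 2)) (hQ : MP C S Q k)
    (hc : ∀ t, m + 3 * k ≤ (R t).trace) {τ : ℝ} (hτ : τ ∈ Ioo 0 (π / 2)) :
    avL C S τ ≤ π * (m * Real.log (sin τ) + k * Real.log (cos τ)) := by
  by_contra hn
  have hw : 0 < ww C S k τ := sub_pos.2 (not_le.1 hn)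
  obtain ⟨w1, w2, hd⟩ := main_second h hP hT hQ
  have sub : ∀ x ∈ Ioo 0 τ, x ∈ Ioo 0 (π / 2) := fun x hx => ⟨hx.1, hx.2.trans hτ.2⟩
  have ht : 0 < tan τ := tan_pos_of_pos_of_lt_pi_div_two hτ.1 hτ.2
  set a := ww C S k τ / tan τ ^ 2 with ha
  have a0 : 0 < a := by positivity
  have dt : ∀ x ∈ Ioo 0 τ, HasDerivAt tan (1 + tan x ^ 2) x := fun x hx => by
    have := (main_h0_sc (sub x hx)).2.ne'
    refine (hasDerivAt_tan this).congr_deriv ?_
    rw [← inv_one_add_tan_sq this, one_div, inv_inv]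
  have key := max_principle (a := 0) (b := τ) (w := fun x => ww C S k x - a * tan x ^ 2)
    (w1 := fun x => w1 x - a * (2 * tan x * (1 + tan x ^ 2)))
    (w2 := fun x => w2 x - a * (2 * (1 + tan x ^ 2) * (1 + 3 * tan x ^ 2)))
    (c := fun x => 2 / (sin x * cos x) ^ 2)
    (fun x hx => ((hd x (sub x hx)).1.sub (((dt x hx).fun_pow 2).const_mul a)).congr_deriv
      (by norm_num))
    (fun x hx => ((hd x (sub x hx)).2.1.sub (((((dt x hx).const_mul 2).fun_mul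
      (((dt x hx).fun_pow 2).const_add 1))).const_mul a)).congr_deriv (by norm_num; ring_nf; simp))
    (fun x hx => by
      obtain ⟨h1, h2⟩ := main_h0_sc (sub x hx)
      positivity)
    (fun x hx => by
      obtain ⟨h1, h2⟩ := main_h0_sc (sub x hx)
      have h3 := (hd x (sub x hx)).2.2
      have h4 : 0 ≤ ∫ t in (0 : ℝ)..π, dfc C S Q k x t :=
        intervalIntegral.integral_nonneg pi_pos.le fun t _ => dfc_nonneg hT hQ (sub x hx) t
      have h5 : 2 / (sin x * cos x) ^ 2 * tan x ^ 2 = 2 * (1 + tan x ^ 2) ^ 2 := by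
        rw [← inv_inv (1 + tan x ^ 2), inv_one_add_tan_sq h2.ne', tan_eq_sin_div_cos]
        field_simp
      have h6 : 0 ≤ a * ((1 + tan x ^ 2) * tan x ^ 2) := by positivity
      have h7 : 2 / (sin x * cos x) ^ 2 * (ww C S k x - a * tan x ^ 2) =
          2 / (sin x * cos x) ^ 2 * ww C S k x - a * (2 * (1 + tan x ^ 2) ^ 2) := by
        rw [← h5]
        ring
      rw [h7]
      nlinarith)
    (fun ε hε => by
      have h1 : Tendsto (fun x => a * tan x ^ 2) (𝓝[>] 0) (𝓝 (a * tan 0 ^ 2)) :=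
        (((continuousAt_tan.2 (by simp)).pow 2).const_mul a).tendsto.mono_left nhdsWithin_le_nhds
      have h2 := (main_ha_zero (k := k) h hP hT).sub h1
      rw [tan_zero, sq, mul_zero, mul_zero, sub_zero] at h2
      exact (h2.eventually (lt_mem_nhds (neg_lt_zero.2 hε))).frequently)
    (fun ε hε => by
      have h1 : ContinuousAt (fun x => ww C S k x - a * tan x ^ 2) τ :=
        (hd τ hτ).1.continuousAt.sub
          (((continuousAt_tan.2 (main_h0_sc hτ).2.ne').pow 2).const_mul a)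
      have h2 := h1.tendsto.mono_left (nhdsWithin_le_nhds (s := Iio τ))
      rw [ha, div_mul_cancel₀ _ (pow_pos ht 2).ne', sub_self] at h2
      exact (h2.eventually (lt_mem_nhds (neg_lt_zero.2 hε))).frequently)
  have hK : 0 < π * (m + k) + 1 := by positivity
  obtain ⟨x, x0, x1, x2, x3⟩ : ∃ x, 0 < x ∧ x < τ ∧ x < 1 ∧ x < a / (π * (m + k) + 1) := by
    have : 0 < min τ (min 1 (a / (π * (m + k) + 1))) := lt_min hτ.1 (lt_min one_pos (by positivity))
    obtain ⟨x, h1, h2⟩ := exists_between this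
    rw [lt_min_iff, lt_min_iff] at h2
    exact ⟨x, h1, h2⟩
  have h1 := key x ⟨x0, x1⟩
  have h2 := ric_a_up h hP hT hc ⟨x0, x2⟩
  have h3 : x ^ 2 ≤ tan x ^ 2 := pow_le_pow_left₀ x0.le (le_tan x0.le (sub x ⟨x0, x1⟩).2) 2
  rw [lt_div_iff₀ hK] at x3
  have h4 := mul_lt_mul_of_pos_right x3 (pow_pos x0 2)
  have h5 := mul_le_mul_of_nonneg_left h3 a0.le
  have h6 := pow_pos x0 3
  nlinarith

theorem ric_rig (h : Sys R C S C1 S1) (hP : SPer C S P) (hT : Tv C S (π / 2))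
    (hk : nul (S (π / 2)) ≤ k) (hc : ∀ t, m + 3 * k ≤ (R t).trace) :
    ∃ Q : Mat m, Qᵀ = Q ∧ Q * Q = Q ∧ ∀ s ∈ Ioo (-(π / 2)) (π / 2), R s = 1 + (3 : ℝ) • Q := by
  obtain ⟨Q, hQ⟩ := exists_mp h hP hT
  have hk' : (nul (S (π / 2)) : ℝ) ≤ k := Nat.cast_le.2 hk
  have st : ∀ t ∈ Icc 0 π, ∃ Q' : Mat m, Q'ᵀ = Q' ∧ Q' * Q' = Q' ∧
      ∀ s ∈ Ioo (t - π / 2) t, R s = 1 + (3 : ℝ) • Q' := fun t ht =>
    rig_step h (hQ.isPr t).symm (hQ.isPr t).idem fun τ hτ => main_hb_AA h hP hT hQ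
      (fun x hx => ric_log h hP hT hQ (fun t => by linarith [hc t]) hx) hτ ht
  have p0 := pi_pos
  obtain ⟨Q0, -, -, h0⟩ := st 0 ⟨le_rfl, p0.le⟩
  obtain ⟨Q1, s1, i1, h1⟩ := st (π / 4) ⟨by linarith, by linarith⟩
  obtain ⟨Q2, -, -, h2⟩ := st (π / 2) ⟨by linarith, by linarith⟩
  refine ⟨Q1, s1, i1, fun s hs => ?_⟩
  rcases lt_trichotomy s 0 with c | c | c
  · rw [h0 s ⟨by linarith [hs.1], c⟩, ← h0 (-(π / 8)) ⟨by linarith, by linarith⟩]
    exact h1 _ ⟨by linarith, by linarith⟩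
  · exact h1 _ ⟨by linarith, by linarith⟩
  · rw [h2 s ⟨by linarith, hs.2⟩, ← h2 (π / 8) ⟨by linarith, by linarith⟩]
    exact h1 _ ⟨by linarith, by linarith⟩

end Vale.Agent.P231
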