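import Vale.Agent.P231.M.Main

/-!
# The equality case: the curvature matrix is constant  (TASK)

`ode_rig`: as in the second half of `ode_main` get `MP` and the hypothesis of `main_hb_AA`.  Fix `t ∈ Icc 0 π`, `Q = Q t`, `Y s = pr C S s t = -(pr C S t s)ᵀ` for `s ∈ Ioo (t - π/2) t`, `Y1` its derivative (`sys_b_dA`, `sys_b_dA1`),
`τ = t - s`, `Δ τ = (sin τ cos τ) • Q + sin τ • (1 - Q)`.  Then `Yᵀ Y = Δ²` (`main_hb_AA`), `Yᵀ Y1` is symmetric (Wronskian, as in `Sys.sig_symm`), so `2 Yᵀ Y1 = (Δ²)'`.  Differentiate once more: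
`Y1ᵀ Y1 - Yᵀ R Y = (Δ²)'' / 2`; with `Y1 = Y⁻¹ᵀ (Δ²)'/2` and `O = Y Δ⁻¹` orthogonal; or show directly that `Y Δ⁻¹` has derivative `0`, so `Y = O Δ` with `O` constant, `R O Δ = -O Δ''`, `R = O (1 + 3 Q) Oᵀ` on the interval
(`O Q Oᵀ` is again a projector, no need to identify `O`).  So `R` is a constant `1 + 3 Q'` on each interval; the intervals for `t = 0, π/4, π/2` overlap.
`Sys.expl`: for the explicit `Y, Y1` the matrices `S1ᵀ Y - Sᵀ Y1`, `Cᵀ Y1 - C1ᵀ Y` have derivative `0` on the interval, values `0, 1` at `0`; multiply by the blocks (`sys_a_blocks`).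
Prefix helper names by `rig_`.
-/

namespace Vale.Agent.P231

open Matrix Real Filter Topology Set

variable {m k : ℕ} {R C S C1 S1 : ℝ → Mat m} {P Q : Mat m}

/-- The matrix acting as `a` on the range of `Q` and as `b` on its kernel. -/
def rig_dg (Q : Mat m) (a b : ℝ) : Mat m := a • Q + b • (1 - Q)

theorem rig_mul (hi : Q * Q = Q) (a b c d : ℝ) :
    rig_dg Q a b * rig_dg Q c d = rig_dg Q (a * c) (b * d) := by
  have c2 : (1 - Q) * (1 - Q) = 1 - Q := by simp [Matrix.mul_sub, Matrix.sub_mul, hi]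
  have c3 : Q * (1 - Q) = 0 := by simp [Matrix.mul_sub, hi]
  have c4 : (1 - Q) * Q = 0 := by simp [Matrix.sub_mul, hi]
  simp only [rig_dg, Matrix.add_mul, Matrix.mul_add, Matrix.smul_mul, Matrix.mul_smul, c2, c3, c4,
    hi, smul_zero, add_zero, zero_add, smul_smul, mul_comm]

theorem rig_one (Q : Mat m) : rig_dg Q 1 1 = 1 := by
  rw [rig_dg, one_smul, one_smul, add_sub_cancel]

theorem rig_Q (Q : Mat m) (a : ℝ) : rig_dg Q a 0 = a • Q := by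
  rw [rig_dg, zero_smul, add_zero]

theorem rig_four (Q : Mat m) : rig_dg Q 4 1 = 1 + (3 : ℝ) • Q := by
  rw [rig_dg]
  module

theorem rig_md (Q : Mat m) {a b : ℝ → ℝ} {a' b' t : ℝ} (ha : HasDerivAt a a' t)
    (hb : HasDerivAt b b' t) : MD (fun s => rig_dg Q (a s) (b s)) (rig_dg Q a' b') t :=
  ((MD.smul ha (MD.const Q t)).add (MD.smul hb (MD.const (1 - Q) t))).congr (by
    rw [smul_zero, smul_zero, add_zero, add_zero, rig_dg])

theorem rig_const {A : ℝ → Mat m} {p q : ℝ} (h : ∀ s ∈ Ioo p q, MD A 0 s) {s t : ℝ}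
    (hs : s ∈ Ioo p q) (ht : t ∈ Ioo p q) : A s = A t :=
  Matrix.ext fun i j => isOpen_Ioo.is_const_of_deriv_eq_zero (f := fun r => A r i j)
    isPreconnected_Ioo (fun r hr => (h r hr i j).differentiableAt.differentiableWithinAt)
    (fun r hr => (h r hr i j).deriv) hs ht

theorem rig_uniq {A B : ℝ → Mat m} {A' B' : Mat m} {p q s : ℝ} (e : ∀ r ∈ Ioo p q, A r = B r)
    (hs : s ∈ Ioo p q) (hA : MD A A' s) (hB : MD B B' s) : A' = B' :=
  hA.unique (hB.congr_ev (mem_of_superset (Ioo_mem_nhds hs.1 hs.2) e))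

theorem rig_core {Y Y1 : ℝ → Mat m} {a a1 b b1 : ℝ → ℝ} {p q : ℝ} (hpq : p < q) (hs : Qᵀ = Q)
    (hi : Q * Q = Q) (dY : ∀ s, MD Y (Y1 s) s) (dY1 : ∀ s, MD Y1 (-(R s * Y s)) s)
    (hW : ∀ s, (Y s)ᵀ * Y1 s = (Y1 s)ᵀ * Y s) (da : ∀ s, HasDerivAt a (a1 s) s)
    (da1 : ∀ s, HasDerivAt a1 (-(4 * a s)) s) (db : ∀ s, HasDerivAt b (b1 s) s)
    (db1 : ∀ s, HasDerivAt b1 (-(1 * b s)) s) (a0 : ∀ s ∈ Ioo p q, a s ≠ 0)
    (b0 : ∀ s ∈ Ioo p q, b s ≠ 0)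
    (hY : ∀ s ∈ Ioo p q, (Y s)ᵀ * Y s = rig_dg Q (a s * a s) (b s * b s)) :
    ∃ Q' : Mat m, Q'ᵀ = Q' ∧ Q' * Q' = Q' ∧ ∀ s ∈ Ioo p q, R s = 1 + (3 : ℝ) • Q' := by
  have inv : ∀ s ∈ Ioo p q, Y s * (rig_dg Q (a s * a s)⁻¹ (b s * b s)⁻¹ * (Y s)ᵀ) = 1 :=
    fun s h => by
      refine mul_eq_one_comm.1 ?_
      rw [Matrix.mul_assoc, hY s h, rig_mul hi, inv_mul_cancel₀ (mul_self_ne_zero.2 (a0 s h)),
        inv_mul_cancel₀ (mul_self_ne_zero.2 (b0 s h)), rig_one]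
  have cl : ∀ s ∈ Ioo p q, ∀ X Z : Mat m, (Y s)ᵀ * X = (Y s)ᵀ * Z → X = Z := fun s h X Z e => by
    rw [← Matrix.one_mul X, ← Matrix.one_mul Z, ← inv s h]
    simp only [Matrix.mul_assoc, e]
  have cr : ∀ s ∈ Ioo p q, ∀ X Z : Mat m, X * Y s = Z * Y s → X = Z := fun s h X Z e => by
    rw [← Matrix.mul_one X, ← Matrix.mul_one Z, ← inv s h, ← Matrix.mul_assoc, e,
      Matrix.mul_assoc]
  have s1 : ∀ s ∈ Ioo p q, (Y s)ᵀ * Y1 s = rig_dg Q (a s * a1 s) (b s * b1 s) := fun s h => by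
    have e := rig_uniq hY h ((dY s).transpose.mul (dY s))
      (rig_md Q ((da s).fun_mul (da s)) ((db s).fun_mul (db s)))
    rw [← hW] at e
    have e2 : (2 : ℝ) • ((Y s)ᵀ * Y1 s) = (2 : ℝ) • rig_dg Q (a s * a1 s) (b s * b1 s) := by
      rw [two_smul, e, rig_dg, rig_dg]
      module
    exact smul_right_injective _ two_ne_zero e2
  have s2 : ∀ s ∈ Ioo p q, Y1 s * rig_dg Q (a s) (b s) = Y s * rig_dg Q (a1 s) (b1 s) :=
    fun s h => cl s h _ _ (by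
      rw [← Matrix.mul_assoc, ← Matrix.mul_assoc, s1 s h, hY s h, rig_mul hi, rig_mul hi,
        mul_right_comm (a s), mul_right_comm (b s)])
  have s3 : ∀ s ∈ Ioo p q, R s * Y s = Y s * rig_dg Q 4 1 := fun s h => by
    have e := rig_uniq s2 h ((dY1 s).mul (rig_md Q (da s) (db s)))
      ((dY s).mul (rig_md Q (da1 s) (db1 s)))
    have e1 : rig_dg Q (-(4 * a s)) (-(1 * b s)) = -(rig_dg Q 4 1 * rig_dg Q (a s) (b s)) := by
      rw [rig_mul hi, rig_dg, rig_dg]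
      module
    rw [e1, add_comm, add_right_inj, Matrix.neg_mul, Matrix.mul_neg, neg_inj] at e
    have e2 := congrArg (· * rig_dg Q (a s)⁻¹ (b s)⁻¹) e
    simp only [mul_assoc, rig_mul hi, mul_inv_cancel₀ (a0 s h), mul_inv_cancel₀ (b0 s h),
      rig_one, mul_one] at e2
    exact e2
  have s4 : ∀ s ∈ Ioo p q, MD (fun r => Y r * rig_dg Q (a r)⁻¹ 0) 0 s := fun s h => by
    refine ((dY s).mul (rig_md Q ((da s).inv (a0 s h)) (hasDerivAt_const s (0 : ℝ)))).congr ?_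
    have e := congrArg (· * rig_dg Q (a s * a s)⁻¹ 0) (s2 s h)
    simp only [Matrix.mul_assoc, rig_mul hi, mul_zero] at e
    have e1 : a s * (a s * a s)⁻¹ = (a s)⁻¹ := by
      have := a0 s h
      field_simp
    have e2 : -a1 s / a s ^ 2 = -(a1 s * (a s * a s)⁻¹) := by
      have := a0 s h
      field_simp
    rw [e1] at e
    rw [Pi.inv_apply, e, e2, ← Matrix.mul_add, rig_Q, rig_Q, neg_smul, add_neg_cancel,
      Matrix.mul_zero]
  have hm : (p + q) / 2 ∈ Ioo p q := ⟨by linarith, by linarith⟩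
  have tr : ∀ x : ℝ, (rig_dg Q x 0)ᵀ = rig_dg Q x 0 := fun x => by
    rw [rig_Q, transpose_smul, hs]
  have s5 : ∀ s ∈ Ioo p q, Y s * rig_dg Q (a s)⁻¹ 0 * (Y s * rig_dg Q (a s)⁻¹ 0)ᵀ * Y s =
      Y s * Q := fun s h => by
    have := a0 s h
    rw [transpose_mul, tr]
    simp only [Matrix.mul_assoc, hY s h, rig_mul hi, mul_zero, zero_mul]
    rw [show (a s)⁻¹ * ((a s)⁻¹ * (a s * a s)) = 1 by field_simp, rig_Q, one_smul]
  refine ⟨Y ((p + q) / 2) * rig_dg Q (a ((p + q) / 2))⁻¹ 0 *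
    (Y ((p + q) / 2) * rig_dg Q (a ((p + q) / 2))⁻¹ 0)ᵀ, ?_, cr _ hm _ _ ?_, fun s h => ?_⟩
  · rw [transpose_mul, transpose_transpose]
  · rw [Matrix.mul_assoc _ _ (Y ((p + q) / 2)), s5 _ hm, ← Matrix.mul_assoc, s5 _ hm,
      Matrix.mul_assoc, hi]
  · rw [rig_const s4 hm h]
    refine cr s h _ _ ?_
    rw [s3 s h, rig_four, Matrix.add_mul, Matrix.smul_mul, s5 s h, Matrix.mul_add,
      Matrix.mul_smul, Matrix.mul_one, Matrix.one_mul]

theorem rig_step (h : Sys R C S C1 S1) {t : ℝ} (hs : Qᵀ = Q) (hi : Q * Q = Q)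
    (hA : ∀ τ ∈ Ioo 0 (π / 2), pr C S t (t - τ) * (pr C S t (t - τ))ᵀ =
      (sin τ * cos τ) ^ 2 • Q + sin τ ^ 2 • (1 - Q)) :
    ∃ Q' : Mat m, Q'ᵀ = Q' ∧ Q' * Q' = Q' ∧ ∀ s ∈ Ioo (t - π / 2) t, R s = 1 + (3 : ℝ) • Q' := by
  have hτ : ∀ s ∈ Ioo (t - π / 2) t, t - s ∈ Ioo 0 (π / 2) := fun s hs =>
    ⟨by linarith [hs.2], by linarith [hs.1]⟩
  have d0 : ∀ s, HasDerivAt (fun r : ℝ => t - r) (-1) s := fun s => (hasDerivAt_id s).const_sub t
  have ds : ∀ s, HasDerivAt (fun r => sin (t - r)) (-cos (t - s)) s := fun s =>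
    (d0 s).sin.congr_deriv (by ring)
  have dc : ∀ s, HasDerivAt (fun r => cos (t - r)) (sin (t - s)) s := fun s =>
    (d0 s).cos.congr_deriv (by ring)
  refine rig_core (a := fun s => sin (t - s) * cos (t - s))
    (a1 := fun s => sin (t - s) * sin (t - s) - cos (t - s) * cos (t - s))
    (b := fun s => sin (t - s)) (b1 := fun s => -cos (t - s)) (by linarith [pi_pos]) hs hi
    (sys_b_dA h t) (sys_b_dA1 h t) (fun s => ?_)
    (fun s => ((ds s).fun_mul (dc s)).congr_deriv (by ring))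
    (fun s => (((ds s).fun_mul (ds s)).fun_sub ((dc s).fun_mul (dc s))).congr_deriv (by ring)) ds
    (fun s => (dc s).fun_neg.congr_deriv (by ring))
    (fun s hs => (mul_pos (main_h0_sc (hτ s hs)).1 (main_h0_sc (hτ s hs)).2).ne')
    (fun s hs => (main_h0_sc (hτ s hs)).1.ne') fun s hs => ?_
  · have h1 := sys_a_w h.symm (sys_b_dA h t) (sys_b_dA h t) (sys_b_dA1 h t) (sys_b_dA1 h t) s
    have h2 := sys_a_w h.symm (sys_b_dA h t) (sys_b_dA h t) (sys_b_dA1 h t) (sys_b_dA1 h t) t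
    rw [← h2, h.lag t, transpose_zero, Matrix.zero_mul, Matrix.mul_zero, sub_zero,
      sub_eq_zero] at h1
    exact h1
  · have h1 := hA _ (hτ s hs)
    rw [sub_sub_cancel] at h1
    have e : pr C S t s = -(pr C S s t)ᵀ := by rw [pr, pr, om_transpose, neg_neg]
    rw [e, transpose_neg, transpose_transpose, neg_mul_neg] at h1
    rw [h1, rig_dg, sq, sq]

theorem ode_rig (h : Sys R C S C1 S1) (hP : SPer C S P) (hT : Tv C S (π / 2))
    (hk : nul (S (π / 2)) ≤ k) (he : ∀ τ ∈ Ioo 0 (π / 2),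
      ∫ s in (0 : ℝ)..π, |(pr C S (s + τ) s).det| ≤ π * (sin τ ^ m * cos τ ^ k)) :
    ∃ Q : Mat m, Qᵀ = Q ∧ Q * Q = Q ∧ ∀ s ∈ Ioo (-(π / 2)) (π / 2), R s = 1 + (3 : ℝ) • Q := by
  obtain ⟨Q, hQ⟩ := exists_mp h hP hT
  have hle : ∀ τ ∈ Ioo 0 (π / 2), π * (sin τ ^ m * cos τ ^ k) ≤
      π * (sin τ ^ m * cos τ ^ nul (S (π / 2))) := fun τ hτ => by
    obtain ⟨hs, hc⟩ := main_h0_sc hτ
    exact mul_le_mul_of_nonneg_left (mul_le_mul_of_nonneg_left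
      (pow_le_pow_of_le_one hc.le (cos_le_one τ) hk) (by positivity)) pi_pos.le
  have hav : ∀ x ∈ Ioo 0 (π / 2), avL C S x ≤
      π * (m * Real.log (sin x) + nul (S (π / 2)) * Real.log (cos x)) := fun x hx => by
    obtain ⟨hs, hc⟩ := main_h0_sc hx
    have h1 : sin x ^ m * cos x ^ nul (S (π / 2)) * ww C S (nul (S (π / 2))) x ≤ 0 := by
      linarith [main_hc_low h hP hT (nul (S (π / 2))) hx, hle x hx, he x hx]
    exact sub_nonpos.1 (nonpos_of_mul_nonpos_right h1 (by positivity) : ww C S _ x ≤ 0)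
  have st : ∀ t ∈ Icc 0 π, ∃ Q' : Mat m, Q'ᵀ = Q' ∧ Q' * Q' = Q' ∧
      ∀ s ∈ Ioo (t - π / 2) t, R s = 1 + (3 : ℝ) • Q' := fun t ht =>
    rig_step h (hQ.isPr t).symm (hQ.isPr t).idem fun τ hτ => main_hb_AA h hP hT hQ hav hτ ht
  have p0 := pi_pos
  obtain ⟨Q0, -, -, h0⟩ := st 0 ⟨le_rfl, p0.le⟩
  obtain ⟨Q1, s1, i1, h1⟩ := st (π / 4) ⟨by linarith, by linarith⟩
  obtain ⟨Q2, -, -, h2⟩ := st (π / 2) ⟨by linarith, by linarith⟩
  refine ⟨Q1, s1, i1, fun s hs => ?_⟩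
  rcases lt_trichotomy s 0 with c | c | c
  · rw [h0 s ⟨by linarith [hs.1], c⟩, ← h0 (-(π / 8)) ⟨by linarith, by linarith⟩]
    exact h1 _ ⟨by linarith, by linarith⟩
  · exact h1 _ ⟨by linarith, by linarith⟩
  · rw [h2 s ⟨by linarith, hs.2⟩, ← h2 (π / 8) ⟨by linarith, by linarith⟩]
    exact h1 _ ⟨by linarith, by linarith⟩

theorem rig_w {A B A1 B1 : ℝ → Mat m} {p q s t : ℝ} (hR : ∀ t, (R t)ᵀ = R t)
    (dA : ∀ t, MD A (A1 t) t) (dB : ∀ t, MD B (B1 t) t) (dA1 : ∀ t, MD A1 (-(R t * A t)) t)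
    (dB1 : ∀ t ∈ Ioo p q, MD B1 (-(R t * B t)) t) (hs : s ∈ Ioo p q) (ht : t ∈ Ioo p q) :
    (A s)ᵀ * B1 s - (A1 s)ᵀ * B s = (A t)ᵀ * B1 t - (A1 t)ᵀ * B t := by
  refine rig_const (A := fun t => (A t)ᵀ * B1 t - (A1 t)ᵀ * B t) (fun t ht => ?_) hs ht
  refine (((dA t).transpose.mul (dB1 t ht)).sub ((dA1 t).transpose.mul (dB t))).congr ?_
  rw [transpose_neg, transpose_mul, hR, Matrix.mul_neg, Matrix.neg_mul, Matrix.mul_assoc]
  abel

theorem Sys.expl (h : Sys R C S C1 S1) (hi : Q * Q = Q)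
    (hR : ∀ s ∈ Ioo (-(π / 2)) (π / 2), R s = 1 + (3 : ℝ) • Q) {c : ℝ} (hc : c ∈ Ioo 0 (π / 2)) :
    S c = sin c • (1 - Q) + (sin c * cos c) • Q ∧ S1 c = cos c • (1 - Q) + cos (2 * c) • Q := by
  have p0 := pi_pos
  have dY : ∀ t, MD (fun s => rig_dg Q (sin s * cos s) (sin s)) (rig_dg Q (cos (2 * t)) (cos t)) t :=
    fun t => rig_md Q (((hasDerivAt_sin t).fun_mul (hasDerivAt_cos t)).congr_deriv (by
      rw [cos_two_mul']; ring)) (hasDerivAt_sin t)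
  have dY1 : ∀ t ∈ Ioo (-(π / 2)) (π / 2), MD (fun s => rig_dg Q (cos (2 * s)) (cos s))
      (-(R t * rig_dg Q (sin t * cos t) (sin t))) t := fun t ht => by
    refine (rig_md Q (((hasDerivAt_id t).const_mul 2).cos) (hasDerivAt_cos t)).congr ?_
    rw [hR t ht, ← rig_four, rig_mul hi, rig_dg, rig_dg, id, sin_two_mul]
    module
  have m0 : (0 : ℝ) ∈ Ioo (-(π / 2)) (π / 2) := ⟨by linarith, by linarith⟩
  have mc : c ∈ Ioo (-(π / 2)) (π / 2) := ⟨by linarith [hc.1], hc.2⟩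
  have w1 := rig_w h.symm h.dS dY h.dS1 dY1 mc m0
  have w2 := rig_w h.symm h.dC dY h.dC1 dY1 mc m0
  have z : rig_dg Q (sin 0 * cos 0) (sin 0) = 0 := by
    rw [sin_zero, zero_mul, rig_Q, zero_smul]
  rw [z, h.S0, transpose_zero, Matrix.zero_mul, Matrix.mul_zero, sub_zero] at w1
  rw [z, h.C0, mul_zero, cos_zero, rig_one, transpose_one, Matrix.mul_zero, Matrix.mul_one,
    sub_zero] at w2
  obtain ⟨b1, b2, b3, b4⟩ := sys_a_blocks h c
  have e1 : sin c • (1 - Q) + (sin c * cos c) • Q = rig_dg Q (sin c * cos c) (sin c) := add_comm _ _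
  have e2 : cos c • (1 - Q) + cos (2 * c) • Q = rig_dg Q (cos (2 * c)) (cos c) := add_comm _ _
  rw [e1, e2]
  generalize rig_dg Q (sin c * cos c) (sin c) = Y at w1 w2
  generalize rig_dg Q (cos (2 * c)) (cos c) = Y1 at w1 w2
  constructor
  · have e : S c * ((C c)ᵀ * Y1 - (C1 c)ᵀ * Y) - C c * ((S c)ᵀ * Y1 - (S1 c)ᵀ * Y) =
        (C c * (S1 c)ᵀ - S c * (C1 c)ᵀ) * Y + (S c * (C c)ᵀ - C c * (S c)ᵀ) * Y1 := by
      simp only [Matrix.mul_sub, Matrix.sub_mul, Matrix.mul_assoc]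
      abel
    rwa [w1, w2, b1, b2, Matrix.mul_one, Matrix.mul_zero, sub_zero, Matrix.one_mul,
      Matrix.zero_mul, add_zero] at e
  · have e : S1 c * ((C c)ᵀ * Y1 - (C1 c)ᵀ * Y) - C1 c * ((S c)ᵀ * Y1 - (S1 c)ᵀ * Y) =
        (C1 c * (S1 c)ᵀ - S1 c * (C1 c)ᵀ) * Y + (S1 c * (C c)ᵀ - C1 c * (S c)ᵀ) * Y1 := by
      simp only [Matrix.mul_sub, Matrix.sub_mul, Matrix.mul_assoc]
      abel
    rwa [w1, w2, b3, b4, Matrix.mul_one, Matrix.mul_zero, sub_zero, Matrix.one_mul,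
      Matrix.zero_mul, zero_add] at e

end Vale.Agent.P231
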